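import Vale.Agent.P091.CH.H69.HL
import Vale.Agent.P091.CH.H847.Ker
import Vale.Agent.P091.CH.H350.Bes

/-!
# TREE LEMMA: the sub-rows  (helper539)

`rho T h x = min_{s ∈ T} (|I_s| + |x - c_s|)`; a tree is cut into 23 trees with one offset.
-/

open Finset

namespace Vale.Agent.P091.CH.H539

variable {K : ℕ}

/-- tree with one frequency offset `m`, `|m| ≤ 11` -/
structure IsOff (K : ℕ) (T : Finset Tile) (kT jT : ℕ) (ξ m : ℤ) : Prop where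
  good : Good K T
  le : |m| ≤ 11
  top : ∀ s ∈ T, kT ≤ s.k ∧ s.j / 2 ^ (s.k - kT) = jT
  off : ∀ s ∈ T, s.l = ξ / 2 ^ s.k + m

/-- the distance function of a finite nonempty set of tiles -/
noncomputable def rho (T : Finset Tile) (h : T.Nonempty) (x : X K) : ℝ :=
  T.inf' h (fun s => s.len + nrm (x - s.c K))

/-- `w_s(x)⁻¹ = (1 + 2^k |x - c_s|)⁻¹` -/
noncomputable def iw (s : Tile) (x : X K) : ℝ := (1 + 2 ^ s.k * nrm (x - s.c K))⁻¹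

/-- `R_T(x)⁻¹` for the top `(kT, jT)` -/
noncomputable def iR (kT jT : ℕ) (x : X K) : ℝ := (1 + 2 ^ kT * nrm (x - pt K kT jT 0))⁻¹

/-- `x` sees a large tile of `T` -/
def Sees (N : X K → ℤ) (T : Finset Tile) (h : T.Nonempty) (x : X K) : Prop :=
  ∃ s ∈ T, 4 * rho T h x ≤ s.len ∧ N x / 2 ^ s.k = s.l

/-- PL: plateau symbols (smooth bump `ψ`, `ψ = 1` on `[2.5, 9.5]`, support in `(2, 10)`,
`φ k l η = ψ (l - η / 2^k)`) -/
def P_PL : Prop := ∃ (B : ℝ) (φ : ℕ → ℤ → ℤ → ℂ), IsSym B φ ∧ ∀ (k : ℕ) (l η : ℤ),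
  (2 * l - 19) * 2 ^ k ≤ 2 * η → 2 * η ≤ (2 * l - 5) * 2 ^ k → φ k l η = 1

open Classical in
/-- TA: the small tiles, `|I_s| < 4 ρ(x)` -/
def P_TA : Prop := ∃ C : ℝ, 0 ≤ C ∧ ∀ (K : ℕ) (N : X K → ℤ) (E : Finset (X K)) (T : Finset Tile)
  (h : T.Nonempty) (kT jT : ℕ) (ξ m : ℤ) (μ : ℝ), 0 ≤ μ → IsOff K T kT jT ξ m → MsLe E N T μ →
    ∑ s ∈ T, ave (fun x : X K => if x ∈ E ∧ N x / 2 ^ s.k = s.l ∧ s.len < 4 * rho T h x
      then iw s x ^ 20 else 0) ≤ C * μ * ((2:ℝ) ^ kT)⁻¹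

open Classical in
/-- TG: functions which are locally dominated, on the set of the `x` that see a large tile -/
def P_TG : Prop := ∃ C : ℝ, 0 ≤ C ∧ ∀ (K : ℕ) (N : X K → ℤ) (E : Finset (X K)) (T : Finset Tile)
  (h : T.Nonempty) (kT jT : ℕ) (ξ m : ℤ) (μ : ℝ), 0 ≤ μ → IsOff K T kT jT ξ m → MsLe E N T μ →
    ∀ F W : X K → ℝ, (∀ x, 0 ≤ W x) →
      (∀ x, Sees N T h x → ∀ y, nrm (x - y) ≤ rho T h x / 4 → F x ≤ W y) →
      ave (fun x => if x ∈ E ∧ Sees N T h x then F x else 0) ≤ C * μ * ave W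

end Vale.Agent.P091.CH.H539
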