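import Vale.Agent.P091.CH.H539.Base

/-!
# TREE LEMMA, part B: the large tiles `|I_s| ≥ 4 ρ(x)`  (helper539)
-/

open Finset

namespace Vale.Agent.P091.CH.H539

open H69 (nrm_nonneg nrm_tri nrm_sub_comm nrm_le_half ave_mono ave_nonneg)

variable {K : ℕ}

/-! ## packets and coefficients -/

theorem pk_le (B : ℝ) : ∃ C : ℝ, 0 ≤ C ∧ ∀ mt, IsSym B mt → ∀ (K r : ℕ), r < 8 →
    ∀ s : Tile, s.Ok K → ∀ x : X K, s.len * ‖pk mt r s x‖ ≤ C * iw s x ^ 20 := by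
  obtain ⟨C, hC⟩ := H847.ker1 B
  refine ⟨2 ^ 20 * |C|, by positivity, fun mt hmt K r hr s hs x => ?_⟩
  have hb := H350.Ok_bounds hs
  have h1 := hC mt hmt K s.k s.l hb.2.1 hb.2.2.1 hb.2.2.2 (x - pt K s.k s.j r)
  have h2 := H350.nrm_c_pt H69.pGEO3 hr hs
  have h3 := nrm_tri x (pt K s.k s.j r) (s.c K)
  have hp := two_pow_pos s.k
  have h4 := H350.shift_wt (a := (2:ℝ) ^ s.k) (b := (2:ℝ) ^ s.k) 20 hp.le le_rfl
    (nrm_nonneg (x - pt K s.k s.j r)) (nrm_nonneg (pt K s.k s.j r - s.c K))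
    (nrm_nonneg (x - s.c K)) h3
  have h5 : (2:ℝ) ^ s.k * nrm (pt K s.k s.j r - s.c K) ≤ 1 := by
    rw [nrm_sub_comm]
    have := mul_le_mul_of_nonneg_left h2 hp.le
    rwa [mul_inv_cancel₀ hp.ne'] at this
  have h6 : (1 + (2:ℝ) ^ s.k * nrm (pt K s.k s.j r - s.c K)) ^ 20 ≤ 2 ^ 20 := by
    refine pow_le_pow_left₀ ?_ (by linarith) 20
    have := mul_nonneg hp.le (nrm_nonneg (pt K s.k s.j r - s.c K))
    linarith
  have h7 : 0 ≤ (1 + (2:ℝ) ^ s.k * nrm (x - s.c K))⁻¹ ^ 20 := by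
    have := iw_den_pos s x
    positivity
  calc s.len * ‖pk mt r s x‖ ≤ s.len * (C * 2 ^ s.k *
        (1 + 2 ^ s.k * nrm (x - pt K s.k s.j r))⁻¹ ^ 20) :=
        mul_le_mul_of_nonneg_left h1 (len_pos s).le
    _ = (s.len * 2 ^ s.k) * (C * (1 + 2 ^ s.k * nrm (x - pt K s.k s.j r))⁻¹ ^ 20) := by ring
    _ = C * (1 + 2 ^ s.k * nrm (x - pt K s.k s.j r))⁻¹ ^ 20 := by rw [len_mul, one_mul]
    _ ≤ |C| * (1 + 2 ^ s.k * nrm (x - pt K s.k s.j r))⁻¹ ^ 20 := by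
        refine mul_le_mul_of_nonneg_right (le_abs_self C) ?_
        have := nrm_nonneg (x - pt K s.k s.j r)
        positivity
    _ ≤ |C| * (2 ^ 20 * (1 + (2:ℝ) ^ s.k * nrm (x - s.c K))⁻¹ ^ 20) := by
        refine mul_le_mul_of_nonneg_left (h4.trans ?_) (abs_nonneg _)
        exact mul_le_mul_of_nonneg_right h6 h7
    _ = _ := by unfold iw; ring

theorem single_le {a : Tile → ℂ} {T : Finset Tile} {e : ℝ} (he : 0 ≤ e) (h : EnLe a T e)
    {s : Tile} (hs : s ∈ T) : ‖a s‖ ≤ e := by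
  have h1 := h {s} (by simpa using hs) s.k s.j (s.l * 2 ^ s.k) (by
    intro t ht
    rw [mem_singleton] at ht
    subst ht
    refine ⟨le_rfl, ?_, ?_⟩
    · simp
    · rw [Int.mul_ediv_cancel _ (by positivity), sub_self, abs_zero]
      norm_num)
  rw [sum_singleton, ← len_eq, mul_comm] at h1
  have h2 : ‖a s‖ ^ 2 ≤ e ^ 2 := le_of_mul_le_mul_right h1 (len_pos s)
  exact (pow_le_pow_iff_left₀ (norm_nonneg _) he two_ne_zero).1 h2

section Off
variable {T : Finset Tile} {kT jT : ℕ} {ξ m : ℤ}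

theorem sum_by_scale (T : Finset Tile) (f : Tile → ℝ) :
    ∑ s ∈ T, f s = ∑ k ∈ T.image Tile.k, ∑ s ∈ T.filter (fun s => s.k = k), f s :=
  (Finset.sum_fiberwise_of_maps_to (fun s hs => mem_image_of_mem _ hs) f).symm

theorem sum_geo (A : Finset ℕ) (kT : ℕ) (hA : ∀ k ∈ A, kT ≤ k) :
    ∑ k ∈ A, ((2:ℝ) ^ (k - kT))⁻¹ ≤ 2 := by
  have hinj : Set.InjOn (fun k => k - kT) (A : Set ℕ) := by
    intro a ha b hb hab
    have h1 := hA a ha
    have h2 := hA b hb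
    simp only at hab
    omega
  rw [← Finset.sum_image (f := fun i => ((2:ℝ) ^ i)⁻¹) hinj]
  refine le_trans ?_ (H69.sum_inv_two_pow ((A.image (fun k => k - kT)).sup id + 1))
  refine Finset.sum_le_sum_of_subset_of_nonneg ?_ (fun _ _ _ => by positivity)
  intro i hi
  rw [mem_range]
  have := Finset.le_sup (f := id) hi
  simp only [id] at this
  omega

/-- far from the top -/
theorem IsOff.far (hT : IsOff K T kT jT ξ m) (x : X K) (hx : 4 ≤ 2 ^ kT * nrm (x - pt K kT jT 0)) :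
    ∑ s ∈ T, iw s x ^ 20 ≤ 23 * iR kT jT x ^ 2 := by
  have hR := iR_pos kT jT x
  have key : ∀ s ∈ T, iw s x ≤ 5 / 3 * ((2:ℝ) ^ (s.k - kT))⁻¹ * iR kT jT x := by
    intro s hs
    have hc := hT.c_top hs
    have ht := (hT.top s hs).1
    have h2 := nrm_tri x (s.c K) (pt K kT jT 0)
    have e : (2:ℝ) ^ s.k = 2 ^ (s.k - kT) * 2 ^ kT := by
      rw [← pow_add]; congr 1; omega
    have h5 : (2:ℝ) ^ kT * nrm (s.c K - pt K kT jT 0) ≤ 1 := by
      have := mul_le_mul_of_nonneg_left hc (two_pow_pos kT).le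
      rwa [mul_inv_cancel₀ (two_pow_pos kT).ne'] at this
    have h6 := mul_le_mul_of_nonneg_left h2 (two_pow_pos kT).le
    rw [mul_add] at h6
    set D := (2:ℝ) ^ kT * nrm (x - pt K kT jT 0) with hD
    set d := (2:ℝ) ^ kT * nrm (x - s.c K) with hd
    have h7 : 3 / 5 * (1 + D) ≤ d := by linarith
    unfold iw iR
    rw [e, mul_assoc, ← hd, ← hD]
    have hq : (0:ℝ) < 2 ^ (s.k - kT) := by positivity
    have h8 : (0:ℝ) < 1 + D := by linarith
    have h9 : 2 ^ (s.k - kT) * (3 / 5 * (1 + D)) ≤ 1 + 2 ^ (s.k - kT) * d := by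
      have := mul_le_mul_of_nonneg_left h7 hq.le
      linarith
    calc (1 + 2 ^ (s.k - kT) * d)⁻¹ ≤ (2 ^ (s.k - kT) * (3 / 5 * (1 + D)))⁻¹ :=
          inv_anti₀ (by positivity) h9
      _ = _ := by
          rw [mul_inv, mul_inv]
          ring
  calc ∑ s ∈ T, iw s x ^ 20
      ≤ ∑ s ∈ T, (25 / 9 * iR kT jT x ^ 2 * ((2:ℝ) ^ (s.k - kT))⁻¹) * iw s x ^ 2 := by
        refine Finset.sum_le_sum fun s hs => ?_
        have h1 := (iw_pos s x).le
        have hq1 : ((2:ℝ) ^ (s.k - kT))⁻¹ ≤ 1 :=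
          inv_le_one_of_one_le₀ (one_le_pow₀ (by norm_num))
        have hq0 : 0 < ((2:ℝ) ^ (s.k - kT))⁻¹ := by positivity
        calc iw s x ^ 20 ≤ iw s x ^ 4 := pow_le_pow_of_le_one h1 (iw_le_one s x) (by norm_num)
          _ = iw s x ^ 2 * iw s x ^ 2 := by ring
          _ ≤ (5 / 3 * ((2:ℝ) ^ (s.k - kT))⁻¹ * iR kT jT x) ^ 2 * iw s x ^ 2 :=
              mul_le_mul_of_nonneg_right (pow_le_pow_left₀ h1 (key s hs) 2) (by positivity)
          _ = (25 / 9 * iR kT jT x ^ 2 * (((2:ℝ) ^ (s.k - kT))⁻¹ * ((2:ℝ) ^ (s.k - kT))⁻¹)) *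
                iw s x ^ 2 := by ring
          _ ≤ (25 / 9 * iR kT jT x ^ 2 * (((2:ℝ) ^ (s.k - kT))⁻¹ * 1)) * iw s x ^ 2 := by
              gcongr
          _ = _ := by ring
    _ = ∑ k ∈ T.image Tile.k, (25 / 9 * iR kT jT x ^ 2 * ((2:ℝ) ^ (k - kT))⁻¹) *
          ∑ s ∈ T.filter (fun s => s.k = k), iw s x ^ 2 := by
        rw [sum_by_scale]
        refine Finset.sum_congr rfl fun k _ => ?_
        rw [Finset.mul_sum]
        refine Finset.sum_congr rfl fun s hs => ?_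
        rw [mem_filter] at hs
        rw [hs.2]
    _ ≤ ∑ k ∈ T.image Tile.k, (25 / 9 * iR kT jT x ^ 2 * ((2:ℝ) ^ (k - kT))⁻¹) * 4 := by
        refine Finset.sum_le_sum fun k _ => ?_
        exact mul_le_mul_of_nonneg_left (hT.sum_scale k x le_rfl) (by positivity)
    _ = (100 / 9 * iR kT jT x ^ 2) * ∑ k ∈ T.image Tile.k, ((2:ℝ) ^ (k - kT))⁻¹ := by
        rw [Finset.mul_sum]
        exact Finset.sum_congr rfl fun _ _ => by ring
    _ ≤ (100 / 9 * iR kT jT x ^ 2) * 2 := by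
        refine mul_le_mul_of_nonneg_left (sum_geo _ _ ?_) (by positivity)
        intro k hk
        rw [mem_image] at hk
        obtain ⟨s, hs, rfl⟩ := hk
        exact (hT.top s hs).1
    _ ≤ _ := by nlinarith [pow_pos hR 2]

/-- only one scale for `|m| ≥ 2` -/
theorem IsOff.one_scale (hT : IsOff K T kT jT ξ m) (hm : 2 ≤ |m|) {n : ℤ} {s t : Tile}
    (hs : s ∈ T) (ht : t ∈ T) (h1 : n / 2 ^ s.k = s.l) (h2 : n / 2 ^ t.k = t.l) : s.k = t.k := by
  have key : ∀ s ∈ T, ∀ t ∈ T, n / 2 ^ s.k = s.l → n / 2 ^ t.k = t.l → ¬ s.k < t.k := by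
    intro s hs t ht h1 h2 hlt
    have hc := (hT.good.1 s hs t ht).1
    have h3 := floor_far n ξ (k := s.k) (k' := t.k) (by omega)
      (by rw [h1, hT.off s hs, add_sub_cancel_left]; exact hT.le)
    rw [h2, hT.off t ht, add_sub_cancel_left] at h3
    omega
  rcases lt_trichotomy s.k t.k with h | h | h
  · exact absurd h (key s hs t ht h1 h2)
  · exact h
  · exact absurd h (key t ht s hs h2 h1)

/-- local comparison of the weights of the top -/
theorem IsOff.top_mul (hT : IsOff K T kT jT ξ m) (h : T.Nonempty) (x : X K) :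
    2 ^ kT * rho T h x ≤ 2 + 2 ^ kT * nrm (x - pt K kT jT 0) := by
  obtain ⟨s, hs⟩ := h
  have h1 := rho_le (h := ⟨s, hs⟩) hs x
  have h2 : s.len ≤ ((2:ℝ) ^ kT)⁻¹ := len_le_of (hT.top s hs).1
  have h3 := hT.c_top hs
  have h4 := nrm_tri x (pt K kT jT 0) (s.c K)
  rw [nrm_sub_comm (pt K kT jT 0)] at h4
  have h5 : rho T ⟨s, hs⟩ x ≤ 2 * ((2:ℝ) ^ kT)⁻¹ + nrm (x - pt K kT jT 0) := by linarith
  have h6 := mul_le_mul_of_nonneg_left h5 (two_pow_pos kT).le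
  calc _ ≤ _ := h6
    _ = 2 * (2 ^ kT * ((2:ℝ) ^ kT)⁻¹) + 2 ^ kT * nrm (x - pt K kT jT 0) := by ring
    _ = _ := by rw [mul_inv_cancel₀ (two_pow_pos kT).ne']; ring

theorem IsOff.top_near (hT : IsOff K T kT jT ξ m) (h : T.Nonempty) {x y : X K}
    (hxy : nrm (x - y) ≤ rho T h x / 4) :
    2 ^ kT * nrm (y - pt K kT jT 0) ≤ 1 / 2 + 5 / 4 * (2 ^ kT * nrm (x - pt K kT jT 0)) := by
  have h1 := hT.top_mul h x
  have h2 := nrm_tri y x (pt K kT jT 0)
  rw [nrm_sub_comm y x] at h2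
  have h3 := mul_le_mul_of_nonneg_left h2 (two_pow_pos kT).le
  have h4 := mul_le_mul_of_nonneg_left hxy (two_pow_pos kT).le
  linarith

theorem IsOff.iR_near (hT : IsOff K T kT jT ξ m) (h : T.Nonempty) {x y : X K}
    (hxy : nrm (x - y) ≤ rho T h x / 4) : iR kT jT x ≤ 3 / 2 * iR kT jT y := by
  have h1 := hT.top_near h hxy
  have h2 := iR_den_pos kT jT x
  have h3 := iR_den_pos kT jT y
  have h4 := mul_nonneg (two_pow_pos kT).le (nrm_nonneg (x - pt K kT jT 0))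
  unfold iR
  rw [inv_eq_one_div, inv_eq_one_div, ← mul_div_assoc, mul_one, div_le_div_iff₀ h2 h3]
  linarith

end Off

end Vale.Agent.P091.CH.H539
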