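import Vale.Agent.P091.CH.H539.Rows

/-!
# TREE LEMMA: basic facts on one-offset trees and on `rho`  (helper539)
-/

open Finset

namespace Vale.Agent.P091.CH.H539

open H69 (nrm_nonneg nrm_tri nrm_sub_comm nrm_le_half ave_mono ave_nonneg)

variable {K : ℕ}

/-! ## rho -/

section rho
variable {T : Finset Tile} {h : T.Nonempty}

theorem rho_le {s : Tile} (hs : s ∈ T) (x : X K) : rho T h x ≤ s.len + nrm (x - s.c K) :=
  Finset.inf'_le (fun s : Tile => s.len + nrm (x - s.c K)) hs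

theorem exists_rho (h : T.Nonempty) (x : X K) :
    ∃ s ∈ T, rho T h x = s.len + nrm (x - s.c K) :=
  Finset.exists_mem_eq_inf' h (fun s : Tile => s.len + nrm (x - s.c K))

theorem len_pos (s : Tile) : 0 < s.len := H350.len_pos s

theorem rho_pos (x : X K) : 0 < rho T h x := by
  obtain ⟨s, -, hs⟩ := exists_rho h x
  rw [hs]
  have := len_pos s
  have := nrm_nonneg (x - s.c K)
  linarith

theorem rho_lip (x y : X K) : rho T h x ≤ rho T h y + nrm (x - y) := by
  obtain ⟨s, hs, hy⟩ := exists_rho h y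
  have h1 := rho_le (h := h) hs x
  have h2 := nrm_tri x y (s.c K)
  linarith

theorem rho_le_one (x : X K) : rho T h x ≤ 3 / 2 := by
  obtain ⟨s, hs⟩ := h
  have h1 := rho_le (h := ⟨s, hs⟩) hs x
  have h2 := nrm_le_half (x - s.c K)
  have h3 : s.len ≤ 1 := by
    unfold Tile.len
    exact inv_le_one_of_one_le₀ (one_le_pow₀ (by norm_num))
  linarith

end rho

/-! ## the weights -/

theorem two_pow_pos (k : ℕ) : (0:ℝ) < 2 ^ k := by positivity

theorem iw_den_pos (s : Tile) (x : X K) : 0 < 1 + 2 ^ s.k * nrm (x - s.c K) := by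
  have := nrm_nonneg (x - s.c K)
  have := two_pow_pos s.k
  positivity

theorem iw_pos (s : Tile) (x : X K) : 0 < iw s x := inv_pos.2 (iw_den_pos s x)

theorem iw_le_one (s : Tile) (x : X K) : iw s x ≤ 1 := by
  unfold iw
  refine inv_le_one_of_one_le₀ ?_
  have := mul_nonneg (two_pow_pos s.k).le (nrm_nonneg (x - s.c K))
  linarith

theorem iR_den_pos (kT jT : ℕ) (x : X K) : 0 < 1 + 2 ^ kT * nrm (x - pt K kT jT 0) := by
  have := nrm_nonneg (x - pt K kT jT 0)
  have := two_pow_pos kT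
  positivity

theorem iR_pos (kT jT : ℕ) (x : X K) : 0 < iR kT jT x := inv_pos.2 (iR_den_pos kT jT x)

theorem iR_le_one (kT jT : ℕ) (x : X K) : iR kT jT x ≤ 1 := by
  unfold iR
  refine inv_le_one_of_one_le₀ ?_
  have := mul_nonneg (two_pow_pos kT).le (nrm_nonneg (x - pt K kT jT 0))
  linarith

theorem len_eq (s : Tile) : s.len = ((2:ℝ) ^ s.k)⁻¹ := rfl

theorem len_mul (s : Tile) : s.len * 2 ^ s.k = 1 := H350.len_mul s

theorem len_le_of {s : Tile} {k : ℕ} (h : k ≤ s.k) : s.len ≤ ((2:ℝ) ^ k)⁻¹ := by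
  unfold Tile.len
  exact inv_anti₀ (by positivity) (pow_le_pow_right₀ (by norm_num) h)

/-- `2^k ρ ≤ w_s` -/
theorem rho_mul_le {T : Finset Tile} {h : T.Nonempty} {s : Tile} (hs : s ∈ T) (x : X K) :
    2 ^ s.k * rho T h x ≤ 1 + 2 ^ s.k * nrm (x - s.c K) := by
  have h1 := mul_le_mul_of_nonneg_left (rho_le (h := h) hs x) (two_pow_pos s.k).le
  rw [mul_add, mul_comm (2 ^ s.k) s.len, len_mul] at h1
  exact h1

/-! ## one-offset trees -/

section Off
variable {T : Finset Tile} {kT jT : ℕ} {ξ m : ℤ}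

theorem IsOff.ok (hT : IsOff K T kT jT ξ m) {s : Tile} (hs : s ∈ T) : s.Ok K := hT.good.2 s hs

/-- distance of the centres to the centre of the top -/
theorem IsOff.c_top (hT : IsOff K T kT jT ξ m) {s : Tile} (hs : s ∈ T) :
    nrm (s.c K - pt K kT jT 0) ≤ ((2:ℝ) ^ kT)⁻¹ := by
  have hok := H350.Ok_bounds (hT.ok hs)
  have ht := hT.top s hs
  have h1 : s.c K ∈ dy K s.k s.j := H350.pt_mem_dy hok.2.1 (hT.ok hs).2.1
  have h2 := H69.dy_subset ht.1 hok.2.1 h1
  rw [ht.2] at h2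
  exact H69.nrm_sub_pt_le (by omega) (by norm_num) h2

theorem IsOff.iw_le (hT : IsOff K T kT jT ξ m) {s : Tile} (hs : s ∈ T) (x : X K) :
    iw s x ≤ 2 * iR kT jT x := by
  unfold iw iR
  have hc := hT.c_top hs
  have ht := (hT.top s hs).1
  have h1 := nrm_nonneg (x - s.c K)
  have h2 := nrm_tri x (s.c K) (pt K kT jT 0)
  have h3 := iR_den_pos kT jT x
  have h4 := iw_den_pos s x
  have hp : (2:ℝ) ^ kT ≤ 2 ^ s.k := pow_le_pow_right₀ (by norm_num) ht
  have h5 : (2:ℝ) ^ kT * nrm (s.c K - pt K kT jT 0) ≤ 1 := by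
    have := mul_le_mul_of_nonneg_left hc (two_pow_pos kT).le
    rwa [mul_inv_cancel₀ (two_pow_pos kT).ne'] at this
  have h6 := mul_le_mul_of_nonneg_left h2 (two_pow_pos kT).le
  have h7 := mul_le_mul_of_nonneg_right hp h1
  rw [inv_eq_one_div, inv_eq_one_div, ← mul_div_assoc, mul_one, div_le_div_iff₀ h4 h3]
  rw [mul_add] at h6
  have h8 := mul_nonneg (two_pow_pos s.k).le h1
  nlinarith

theorem IsOff.sum_scale (hT : IsOff K T kT jT ξ m) (k : ℕ) (x : X K) {n : ℕ} (hn : 2 ≤ n) :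
    ∑ s ∈ T.filter (fun s => s.k = k), iw s x ^ n ≤ 4 := by
  classical
  by_cases hne : (T.filter (fun s => s.k = k)).Nonempty
  · obtain ⟨s0, hs0⟩ := hne
    rw [mem_filter] at hs0
    have hok := H350.Ok_bounds (hT.ok hs0.1)
    rw [hs0.2] at hok
    have hinj : Set.InjOn (fun s : Tile => s.j) (T.filter (fun s => s.k = k) : Finset Tile) := by
      intro s hs t ht hst
      rw [coe_filter, Set.mem_ofPred_eq] at hs ht
      have h1 := hT.off s hs.1
      have h2 := hT.off t ht.1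
      rw [hs.2] at h1
      rw [ht.2] at h2
      exact Tile.ext (hs.2.trans ht.2.symm) hst (h1.trans h2.symm)
    calc ∑ s ∈ T.filter (fun s => s.k = k), iw s x ^ n
        = ∑ s ∈ T.filter (fun s => s.k = k), (1 + 2 ^ k * nrm (x - pt K k s.j 0))⁻¹ ^ n := by
          refine Finset.sum_congr rfl fun s hs => ?_
          rw [mem_filter] at hs
          unfold iw Tile.c
          rw [hs.2]
      _ = ∑ j ∈ (T.filter (fun s => s.k = k)).image (fun s => s.j),
            (1 + 2 ^ k * nrm (x - pt K k j 0))⁻¹ ^ n := by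
          rw [Finset.sum_image hinj]
      _ ≤ ∑ j ∈ range (2 ^ k), (1 + 2 ^ k * nrm (x - pt K k j 0))⁻¹ ^ n := by
          refine Finset.sum_le_sum_of_subset_of_nonneg ?_ ?_
          · intro j hj
            rw [mem_image] at hj
            obtain ⟨s, hs, rfl⟩ := hj
            rw [mem_filter] at hs
            have := (hT.ok hs.1).2.1
            rw [hs.2] at this
            exact mem_range.2 this
          · intro j _ _
            have := nrm_nonneg (x - pt K k j 0)
            have := two_pow_pos k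
            positivity
      _ ≤ 4 := H69.geo2 hn hok.1 x
  · rw [not_nonempty_iff_eq_empty] at hne
    rw [hne, sum_empty]
    norm_num

/-- sums over one scale with the decay towards the top -/
theorem IsOff.sum_scale_top (hT : IsOff K T kT jT ξ m) (k : ℕ) (x : X K) {n : ℕ} (hn : 4 ≤ n) :
    ∑ s ∈ T.filter (fun s => s.k = k), iw s x ^ n ≤ 16 * iR kT jT x ^ 2 := by
  have hR := (iR_pos kT jT x).le
  calc ∑ s ∈ T.filter (fun s => s.k = k), iw s x ^ n
      ≤ ∑ s ∈ T.filter (fun s => s.k = k), (4 * iR kT jT x ^ 2) * iw s x ^ 2 := by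
        refine Finset.sum_le_sum fun s hs => ?_
        rw [mem_filter] at hs
        have h1 := (iw_pos s x).le
        have h2 := hT.iw_le hs.1 x
        calc iw s x ^ n ≤ iw s x ^ 4 := pow_le_pow_of_le_one h1 (iw_le_one s x) hn
          _ = iw s x ^ 2 * iw s x ^ 2 := by ring
          _ ≤ (2 * iR kT jT x) ^ 2 * iw s x ^ 2 :=
              mul_le_mul_of_nonneg_right (pow_le_pow_left₀ h1 h2 2) (by positivity)
          _ = _ := by ring
    _ = (4 * iR kT jT x ^ 2) * ∑ s ∈ T.filter (fun s => s.k = k), iw s x ^ 2 := by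
        rw [Finset.mul_sum]
    _ ≤ (4 * iR kT jT x ^ 2) * 4 :=
        mul_le_mul_of_nonneg_left (hT.sum_scale k x le_rfl) (by positivity)
    _ = _ := by ring

end Off

/-! ## floors -/

theorem div_between {A B p : ℤ} (hp : 0 < p) (h : B ≤ A) :
    0 ≤ A / p - B / p ∧ A / p - B / p ≤ A - B := by
  have h1 : B / p ≤ A / p := Int.ediv_le_ediv hp h
  refine ⟨by omega, ?_⟩
  have h2 : A ≤ B + p * (A - B) := by nlinarith
  have h3 : A / p ≤ (B + p * (A - B)) / p := Int.ediv_le_ediv hp h2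
  rw [Int.add_mul_ediv_left _ _ hp.ne'] at h3
  omega

/-- the offset decreases in modulus and keeps its sign -/
theorem floor_cases (a b : ℤ) {k k' : ℕ} (hk : k ≤ k') :
    (0 ≤ a / 2 ^ k' - b / 2 ^ k' ∧ a / 2 ^ k' - b / 2 ^ k' ≤ a / 2 ^ k - b / 2 ^ k) ∨
    (a / 2 ^ k' - b / 2 ^ k' ≤ 0 ∧ a / 2 ^ k - b / 2 ^ k ≤ a / 2 ^ k' - b / 2 ^ k') := by
  have hp : (0:ℤ) < 2 ^ (k' - k) := by positivity
  have e : (2:ℤ) ^ k' = 2 ^ k * 2 ^ (k' - k) := by
    rw [← pow_add]; congr 1; omega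
  rw [e, ← Int.ediv_ediv_of_nonneg (by positivity), ← Int.ediv_ediv_of_nonneg (by positivity)]
  rcases le_total (b / 2 ^ k) (a / 2 ^ k) with h | h
  · left; exact div_between hp h
  · right
    have := div_between hp h
    omega

/-- far scales: the offset is at most one -/
theorem floor_far (a b : ℤ) {k k' : ℕ} (hk : k + 5 ≤ k') (h : |a / 2 ^ k - b / 2 ^ k| ≤ 11) :
    |a / 2 ^ k' - b / 2 ^ k'| ≤ 1 := by
  have hp : (32:ℤ) ≤ 2 ^ (k' - k) := by
    have : (2:ℤ) ^ 5 ≤ 2 ^ (k' - k) := pow_le_pow_right₀ (by norm_num) (by omega)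
    linarith
  have hp0 : (0:ℤ) < 2 ^ (k' - k) := by linarith
  have e : (2:ℤ) ^ k' = 2 ^ k * 2 ^ (k' - k) := by
    rw [← pow_add]; congr 1; omega
  rw [e, ← Int.ediv_ediv_of_nonneg (by positivity), ← Int.ediv_ediv_of_nonneg (by positivity)]
  rw [abs_le] at h ⊢
  set A := a / 2 ^ k
  set B := b / 2 ^ k
  set p : ℤ := 2 ^ (k' - k)
  have h1 : A / p ≤ B / p + 1 := by
    have : A / p ≤ (B + p * 1) / p := Int.ediv_le_ediv hp0 (by linarith)
    rwa [Int.add_mul_ediv_left _ _ hp0.ne'] at this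
  have h2 : B / p ≤ A / p + 1 := by
    have : B / p ≤ (A + p * 1) / p := Int.ediv_le_ediv hp0 (by linarith)
    rwa [Int.add_mul_ediv_left _ _ hp0.ne'] at this
  constructor <;> omega

end Vale.Agent.P091.CH.H539
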