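import Vale.Agent.P091.CH.H539.Proj
import Vale.Agent.P091.CH.H279.Pl
import Vale.Agent.P091.CH.H324.TG
import Vale.Agent.P091.CH.H862.TA

/-!
# TREE LEMMA, part B for one offset  (helper539)
-/

open Finset

namespace Vale.Agent.P091.CH.H539

open H69 (nrm_nonneg nrm_tri nrm_sub_comm nrm_le_half ave_mono ave_nonneg)

variable {K : ℕ}

open Classical in
/-- the large tiles seen by `x` -/
noncomputable def big (K : ℕ) (N : X K → ℤ) (κ1 κ2 : X K → ℕ) (T : Finset Tile) (h : T.Nonempty)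
    (x : X K) : Finset Tile :=
  T.filter (fun s => 4 * rho T h x ≤ s.len ∧ N x / 2 ^ s.k = s.l ∧ κ1 x ≤ s.k ∧ s.k < κ2 x)

/-- the large part of the tree function -/
noncomputable def FF (K : ℕ) (mt : ℕ → ℤ → ℤ → ℂ) (r : ℕ) (N : X K → ℤ) (κ1 κ2 : X K → ℕ)
    (T : Finset Tile) (h : T.Nonempty) (c : Tile → ℂ) (x : X K) : ℂ :=
  ∑ s ∈ big K N κ1 κ2 T h x, s.len * c s * pk mt r s x

section Off
variable {T : Finset Tile} {kT jT : ℕ} {ξ m : ℤ}

/-- absolute values: every subsum of the tree function is dominated by the weights -/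
theorem abs_sum_le {A S : Finset Tile} (hAS : A ⊆ S) {C e : ℝ} {c : Tile → ℂ}
    {mt : ℕ → ℤ → ℤ → ℂ} {r : ℕ} {x : X K} (hC : 0 ≤ C) (he : 0 ≤ e) (hc : ∀ s ∈ A, ‖c s‖ ≤ e)
    (hpk : ∀ s ∈ A, s.len * ‖pk mt r s x‖ ≤ C * iw s x ^ 20) :
    ‖∑ s ∈ A, s.len * c s * pk mt r s x‖ ≤ C * e * ∑ s ∈ S, iw s x ^ 20 := by
  refine (norm_sum_le _ _).trans ?_
  calc ∑ s ∈ A, ‖s.len * c s * pk mt r s x‖ ≤ ∑ s ∈ A, C * e * iw s x ^ 20 := by
        refine Finset.sum_le_sum fun s hs => ?_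
        rw [norm_mul, norm_mul, Complex.norm_real, Real.norm_of_nonneg (len_pos s).le]
        calc s.len * ‖c s‖ * ‖pk mt r s x‖ = ‖c s‖ * (s.len * ‖pk mt r s x‖) := by ring
          _ ≤ e * (C * iw s x ^ 20) :=
              mul_le_mul (hc s hs) (hpk s hs) (mul_nonneg (len_pos s).le (norm_nonneg _)) he
          _ = _ := by ring
    _ ≤ ∑ s ∈ S, C * e * iw s x ^ 20 := by
        refine Finset.sum_le_sum_of_subset_of_nonneg hAS fun s _ _ => ?_
        have := iw_pos s x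
        positivity
    _ = _ := by rw [Finset.mul_sum]

/-- subsums by scale of a lacunary tree -/
theorem low_le {B : ℝ} {φ : ℕ → ℤ → ℤ → ℂ} (hφ : IsSym B φ)
    (hφ1 : ∀ (k : ℕ) (l η : ℤ), (2 * l - 19) * 2 ^ k ≤ 2 * η → 2 * η ≤ (2 * l - 5) * 2 ^ k →
      φ k l η = 1) {B' : ℝ} {mt : ℕ → ℤ → ℤ → ℂ} (hmt : IsSym B' mt) (r : ℕ) {C : ℝ} (hC : 0 ≤ C)
    (hproj : ∀ s1 ∈ T, ∀ (f : X K → ℂ) (x y : X K), nrm (x - y) ≤ s1.len →
      ‖mul (φ (s1.k + 1) (lp ξ s1.k)) f x‖ ≤ C * MX (fun z => ‖f z‖) y)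
    (hT : IsOff K T kT jT ξ m) (hm : |m| ≤ 1) (c : Tile → ℂ) (κ : ℕ) {x y : X K}
    (hxy : nrm (x - y) ≤ ((2:ℝ) ^ κ)⁻¹) :
    ‖∑ s ∈ T.filter (fun s => s.k ≤ κ), s.len * c s * pk mt r s x‖
      ≤ C * MX (fun z => ‖hh K mt r T c z‖) y := by
  classical
  have hM : 0 ≤ MX (fun z => ‖hh K mt r T c z‖) y := H69.MX_nonneg _ _
  by_cases hne : (T.filter (fun s => s.k ≤ κ)).Nonempty
  · obtain ⟨s1, hs1, hmax⟩ := Finset.exists_max_image _ (fun s : Tile => s.k) hne
    rw [mem_filter] at hs1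
    have hset : T.filter (fun s => s.k ≤ κ) = T.filter (fun s => s.k ≤ s1.k) := by
      ext s
      rw [mem_filter, mem_filter]
      constructor
      · rintro ⟨h1, h2⟩
        exact ⟨h1, hmax s (mem_filter.2 ⟨h1, h2⟩)⟩
      · rintro ⟨h1, h2⟩
        exact ⟨h1, h2.trans hs1.2⟩
    rw [hset, ← proj_eq hφ hφ1 hmt r hT hm hs1.1 c x]
    refine hproj s1 hs1.1 _ x y (hxy.trans ?_)
    unfold Tile.len
    exact inv_anti₀ (by positivity) (pow_le_pow_right₀ (by norm_num) hs1.2)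
  · rw [not_nonempty_iff_eq_empty] at hne
    rw [hne, sum_empty, norm_zero]
    exact mul_nonneg hC hM

/-- the large part is a difference of two sums over low scales -/
theorem FF_eq (hT : IsOff K T kT jT ξ m) (h : T.Nonempty) (N : X K → ℤ) (κ1 κ2 : X K → ℕ)
    (mt : ℕ → ℤ → ℤ → ℂ) (r : ℕ) (c : Tile → ℂ) (x : X K)
    (hne : (big K N κ1 κ2 T h x).Nonempty) : ∃ k1 k2 : ℕ, k1 ≤ k2 ∧
      4 * rho T h x ≤ ((2:ℝ) ^ k2)⁻¹ ∧
      FF K mt r N κ1 κ2 T h c x =
        ∑ s ∈ T.filter (fun s => s.k ≤ k2), s.len * c s * pk mt r s x -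
        if k1 = 0 then 0 else ∑ s ∈ T.filter (fun s => s.k ≤ k1 - 1), s.len * c s * pk mt r s x := by
  classical
  obtain ⟨s2, hs2, hmax⟩ := Finset.exists_max_image _ (fun s : Tile => s.k) hne
  obtain ⟨s1, hs1, hmin⟩ := Finset.exists_min_image _ (fun s : Tile => s.k) hne
  refine ⟨s1.k, s2.k, hmin s2 hs2, ?_, ?_⟩
  · unfold big at hs2
    rw [mem_filter] at hs2
    exact hs2.2.1
  · have hset : big K N κ1 κ2 T h x = T.filter (fun s => s1.k ≤ s.k ∧ s.k ≤ s2.k) := by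
      ext s
      rw [mem_filter]
      constructor
      · intro hs
        refine ⟨?_, hmin s hs, hmax s hs⟩
        unfold big at hs
        exact (mem_filter.1 hs).1
      · rintro ⟨h1, h2, h3⟩
        unfold big at hs1 hs2 ⊢
        rw [mem_filter] at hs1 hs2 ⊢
        refine ⟨h1, ?_, ?_, by omega, by omega⟩
        · refine hs2.2.1.trans ?_
          unfold Tile.len
          exact inv_anti₀ (by positivity) (pow_le_pow_right₀ (by norm_num) h3)
        · exact interval_scales hT hs1.1 hs2.1 h1 hs1.2.2.1 hs2.2.2.1 h2 h3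
    unfold FF
    rw [hset, eq_sub_iff_add_eq]
    have h12 := hmin s2 hs2
    split_ifs with h0
    · rw [add_zero]
      refine Finset.sum_congr ?_ fun _ _ => rfl
      ext s
      rw [mem_filter, mem_filter, h0]
      simp
    · rw [← Finset.sum_union]
      · refine Finset.sum_congr ?_ fun _ _ => rfl
        ext s
        simp only [mem_union, mem_filter]
        constructor
        · rintro (⟨h1, h2⟩ | ⟨h1, h2⟩)
          · exact ⟨h1, h2.2⟩
          · exact ⟨h1, by omega⟩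
        · rintro ⟨h1, h2⟩
          by_cases h3 : s1.k ≤ s.k
          · exact Or.inl ⟨h1, h3, h2⟩
          · exact Or.inr ⟨h1, by omega⟩
      · rw [Finset.disjoint_left]
        intro s h1 h2
        rw [mem_filter] at h1 h2
        omega

end Off

open Classical in
/-- the dominating function -/
noncomputable def WW (K : ℕ) (C e : ℝ) (kT jT : ℕ) (f : X K → ℂ) (y : X K) : ℝ :=
  C * (e * iR kT jT y ^ 2 +
    if 2 ^ kT * nrm (y - pt K kT jT 0) ≤ 6 then MX (fun z => ‖f z‖) y else 0)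

theorem FF_le (B : ℝ) : ∃ C : ℝ, 0 ≤ C ∧ ∀ mt, IsSym B mt → ∀ (K r : ℕ), r < 8 →
    ∀ (N : X K → ℤ) (κ1 κ2 : X K → ℕ) (T : Finset Tile) (h : T.Nonempty) (kT jT : ℕ) (ξ m : ℤ)
      (c : Tile → ℂ) (e : ℝ), 0 ≤ e → IsOff K T kT jT ξ m → (∀ s ∈ T, ‖c s‖ ≤ e) →
      ∀ x y : X K, nrm (x - y) ≤ rho T h x / 4 →
        ‖FF K mt r N κ1 κ2 T h c x‖ ≤
          WW K C e kT jT (fun z => if |m| ≤ 1 then hh K mt r T c z else 0) y := by
  classical
  obtain ⟨C1, hC1, hpk⟩ := pk_le B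
  obtain ⟨Bφ, φ, hφ, hφ1⟩ := H279.plateau
  obtain ⟨C2, hC2, hproj⟩ := proj_le hφ
  refine ⟨C1 * 60 + 2 * C2, by positivity, ?_⟩
  intro mt hmt K r hr N κ1 κ2 T h kT jT ξ m c e he hT hc x y hxy
  have hR := hT.iR_near h hxy
  have hRx := iR_pos kT jT x
  have hRy := iR_pos kT jT y
  have hR2 : iR kT jT x ^ 2 ≤ 9 / 4 * iR kT jT y ^ 2 := by
    calc iR kT jT x ^ 2 ≤ (3 / 2 * iR kT jT y) ^ 2 := pow_le_pow_left₀ hRx.le hR 2
      _ = _ := by ring
  have hbig : big K N κ1 κ2 T h x ⊆ T := by unfold big; exact filter_subset _ _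
  have hMX : ∀ f : X K → ℂ, 0 ≤ (if 2 ^ kT * nrm (y - pt K kT jT 0) ≤ 6 then
      MX (fun z => ‖f z‖) y else 0) := by
    intro f
    split_ifs
    · exact H69.MX_nonneg _ _
    · exact le_rfl
  -- absolute value cases
  have habs : ∀ S : Finset Tile, big K N κ1 κ2 T h x ⊆ S →
      ∑ s ∈ S, iw s x ^ 20 ≤ 23 * iR kT jT x ^ 2 →
      ‖FF K mt r N κ1 κ2 T h c x‖ ≤
        WW K (C1 * 60 + 2 * C2) e kT jT (fun z => if |m| ≤ 1 then hh K mt r T c z else 0) y := by
    intro S hS hsum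
    have h1 := abs_sum_le (x := x) hS hC1 he (fun s hs => hc s (hbig hs))
      (fun s hs => hpk mt hmt K r hr s (hT.ok (hbig hs)) x)
    calc ‖FF K mt r N κ1 κ2 T h c x‖ ≤ C1 * e * ∑ s ∈ S, iw s x ^ 20 := h1
      _ ≤ C1 * e * (23 * (9 / 4 * iR kT jT y ^ 2)) := by
          refine mul_le_mul_of_nonneg_left (hsum.trans ?_) (by positivity)
          linarith
      _ ≤ (C1 * 60 + 2 * C2) * (e * iR kT jT y ^ 2) := by
          have h2 : 0 ≤ e * iR kT jT y ^ 2 := by positivity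
          nlinarith [mul_nonneg hC1 h2, mul_nonneg hC2 h2]
      _ ≤ _ := by
          unfold WW
          refine mul_le_mul_of_nonneg_left ?_ (by positivity)
          have := hMX (fun z => if |m| ≤ 1 then hh K mt r T c z else 0)
          linarith
  by_cases hne : (big K N κ1 κ2 T h x).Nonempty
  swap
  · rw [not_nonempty_iff_eq_empty] at hne
    refine habs ∅ (by rw [hne]) ?_
    rw [sum_empty]
    positivity
  by_cases hm : |m| ≤ 1
  swap
  · -- one scale
    obtain ⟨s0, hs0⟩ := hne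
    refine habs (T.filter (fun s => s.k = s0.k)) ?_ ?_
    · intro s hs
      rw [mem_filter]
      refine ⟨hbig hs, ?_⟩
      unfold big at hs hs0
      rw [mem_filter] at hs hs0
      exact hT.one_scale (by omega) hs.1 hs0.1 hs.2.2.1 hs0.2.2.1
    · refine (hT.sum_scale_top s0.k x (by norm_num)).trans ?_
      have : 0 ≤ iR kT jT x ^ 2 := by positivity
      linarith
  by_cases hfar : 4 ≤ 2 ^ kT * nrm (x - pt K kT jT 0)
  · exact habs T hbig (hT.far x hfar)
  push Not at hfar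
  -- near case
  obtain ⟨k1, k2, h12, hρ, hFF⟩ := FF_eq hT h N κ1 κ2 mt r c x hne
  have hpos : 0 < rho T h x := rho_pos x
  have hxy2 : nrm (x - y) ≤ ((2:ℝ) ^ k2)⁻¹ := by linarith
  have hlow : ∀ κ ≤ k2, ‖∑ s ∈ T.filter (fun s => s.k ≤ κ), s.len * c s * pk mt r s x‖
      ≤ C2 * MX (fun z => ‖hh K mt r T c z‖) y := by
    intro κ hκ
    refine low_le hφ hφ1 hmt r hC2 (hproj K T kT jT ξ m hT hm) hT hm c κ (hxy2.trans ?_)
    exact inv_anti₀ (by positivity) (pow_le_pow_right₀ (by norm_num) hκ)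
  have hM : 0 ≤ MX (fun z => ‖hh K mt r T c z‖) y := H69.MX_nonneg _ _
  have h2 : ‖FF K mt r N κ1 κ2 T h c x‖ ≤ 2 * C2 * MX (fun z => ‖hh K mt r T c z‖) y := by
    rw [hFF]
    refine (norm_sub_le _ _).trans ?_
    have h3 := hlow k2 le_rfl
    have h4 : ‖if k1 = 0 then (0:ℂ) else
        ∑ s ∈ T.filter (fun s => s.k ≤ k1 - 1), s.len * c s * pk mt r s x‖
        ≤ C2 * MX (fun z => ‖hh K mt r T c z‖) y := by
      split_ifs
      · rw [norm_zero]; positivity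
      · exact hlow (k1 - 1) (by omega)
    linarith
  have h6 : 2 ^ kT * nrm (y - pt K kT jT 0) ≤ 6 := by
    have := hT.top_near h hxy
    linarith
  unfold WW
  rw [if_pos h6]
  simp only [if_pos hm]
  have h7 : 0 ≤ e * iR kT jT y ^ 2 := by positivity
  nlinarith [mul_nonneg hC1 h7, mul_nonneg hC2 h7, mul_nonneg hC1 hM]

/-- average of the dominating function -/
theorem ave_WW (B : ℝ) : ∃ C : ℝ, 0 ≤ C ∧ ∀ mt, IsSym B mt → ∀ (K r : ℕ), r < 8 →
    ∀ (T : Finset Tile) (kT jT : ℕ) (ξ m : ℤ)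
      (c : Tile → ℂ) (e C' : ℝ), 0 < e → 0 ≤ C' → kT ≤ K → IsOff K T kT jT ξ m → EnLe c T e →
        ave (WW K C' e kT jT (fun z => if |m| ≤ 1 then hh K mt r T c z else 0)) ≤
          C' * C * e * ((2:ℝ) ^ kT)⁻¹ := by
  classical
  obtain ⟨C1, hC1⟩ := H350.bes3_of H847.ker1 H69.pGEO1 H69.pGEO2 H69.pGEO3 B
  refine ⟨4 + 98 + 40000 * |C1|, by positivity, ?_⟩
  intro mt hmt K r hr T kT jT ξ m c e C' he hC' hkT hT hE
  have hp := two_pow_pos kT
  set f : X K → ℂ := fun z => if |m| ≤ 1 then hh K mt r T c z else 0 with hf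
  have hL2 : ave (fun y => ‖f y‖ ^ 2) ≤ |C1| * (e ^ 2 * ((2:ℝ) ^ kT)⁻¹) := by
    by_cases hm : |m| ≤ 1
    · have hlac : IsLac T kT jT ξ := by
        intro s hs
        refine ⟨(hT.top s hs).1, (hT.top s hs).2, ?_⟩
        rw [hT.off s hs, add_sub_cancel_left]
        exact hm
      have h1 := hC1 mt hmt K r hr T kT jT ξ hT.good hlac c
      have h2 := hE T Subset.rfl kT jT ξ hlac
      have h3 : 0 ≤ ∑ s ∈ T, s.len * ‖c s‖ ^ 2 :=
        Finset.sum_nonneg fun s _ => mul_nonneg (len_pos s).le (by positivity)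
      calc ave (fun y => ‖f y‖ ^ 2) = ave (fun x : X K => ‖∑ s ∈ T, s.len * c s * pk mt r s x‖ ^ 2) := by
            congr 1
            funext y
            rw [hf]
            simp only [if_pos hm]
            rfl
        _ ≤ C1 * ∑ s ∈ T, s.len * ‖c s‖ ^ 2 := h1
        _ ≤ |C1| * ∑ s ∈ T, s.len * ‖c s‖ ^ 2 := mul_le_mul_of_nonneg_right (le_abs_self _) h3
        _ ≤ _ := mul_le_mul_of_nonneg_left h2 (abs_nonneg _)
    · have h0 : ave (fun y => ‖f y‖ ^ 2) = 0 := by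
        rw [hf]
        simp only [if_neg hm, norm_zero]
        unfold ave
        simp
      rw [h0]
      positivity
  have hball : ave (fun y : X K => if 2 ^ kT * nrm (y - pt K kT jT 0) ≤ 6 then (1:ℝ) else 0) ≤
      196 * ((2:ℝ) ^ kT)⁻¹ := by
    have h1 := H69.ball_le hkT (A := 6) (by norm_num) (pt K kT jT 0)
    refine le_trans (le_of_eq ?_) (h1.trans (le_of_eq (by norm_num)))
    congr 1
    funext y
    congr 1
    rw [nrm_sub_comm, ← div_eq_mul_inv, le_div_iff₀ hp, mul_comm]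
  have hpt : ∀ y : X K, WW K C' e kT jT f y ≤ C' * (e * iR kT jT y ^ 2 +
      (e / 2 * (if 2 ^ kT * nrm (y - pt K kT jT 0) ≤ 6 then (1:ℝ) else 0) +
        1 / (2 * e) * MX (fun z => ‖f z‖) y ^ 2)) := by
    intro y
    unfold WW
    refine mul_le_mul_of_nonneg_left ?_ hC'
    refine add_le_add le_rfl ?_
    have h2 : 0 ≤ 1 / (2 * e) * MX (fun z => ‖f z‖) y ^ 2 := by positivity
    split_ifs
    · rw [mul_one]
      set M := MX (fun z => ‖f z‖) y
      rw [div_add' _ _ _ (by norm_num : (2:ℝ) ≠ 0), le_div_iff₀ (by norm_num)]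
      have e1 : 1 / (2 * e) * M ^ 2 * 2 = M ^ 2 / e := by field_simp
      rw [e1]
      have e2 : M * 2 - e ≤ M ^ 2 / e := by
        rw [le_div_iff₀ he]
        nlinarith [sq_nonneg (M - e)]
      linarith
    · linarith
  have hg := H69.geo1 (n := 2) le_rfl hkT (pt K kT jT 0)
  have hhl := H69.hl2 (fun z => ‖f z‖)
  calc ave (WW K C' e kT jT f) ≤ ave (fun y => C' * (e * iR kT jT y ^ 2 +
      (e / 2 * (if 2 ^ kT * nrm (y - pt K kT jT 0) ≤ 6 then (1:ℝ) else 0) +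
        1 / (2 * e) * MX (fun z => ‖f z‖) y ^ 2))) := ave_mono hpt
    _ = C' * (e * ave (fun y => iR kT jT y ^ 2) +
      (e / 2 * ave (fun y : X K => if 2 ^ kT * nrm (y - pt K kT jT 0) ≤ 6 then (1:ℝ) else 0) +
        1 / (2 * e) * ave (fun y => MX (fun z => ‖f z‖) y ^ 2))) := by
        rw [H69.ave_mul_left, H69.ave_add, H69.ave_add, H69.ave_mul_left, H69.ave_mul_left,
          H69.ave_mul_left]
    _ ≤ C' * (e * (4 * ((2:ℝ) ^ kT)⁻¹) + (e / 2 * (196 * ((2:ℝ) ^ kT)⁻¹) +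
        1 / (2 * e) * (80000 * (|C1| * (e ^ 2 * ((2:ℝ) ^ kT)⁻¹))))) := by
        refine mul_le_mul_of_nonneg_left ?_ hC'
        refine add_le_add (mul_le_mul_of_nonneg_left hg he.le) (add_le_add
          (mul_le_mul_of_nonneg_left hball (by positivity)) ?_)
        refine mul_le_mul_of_nonneg_left (hhl.trans ?_) (by positivity)
        exact mul_le_mul_of_nonneg_left hL2 (by norm_num)
    _ = _ := by
        field_simp
        ring

end Vale.Agent.P091.CH.H539
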