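import Vale.Agent.P091.CH.H539.B

/-!
# TREE LEMMA: smooth projections of a lacunary one-offset tree  (helper539)
-/

open Finset

namespace Vale.Agent.P091.CH.H539

open H69 (nrm_nonneg nrm_tri nrm_sub_comm nrm_le_half ave_mono ave_nonneg)

variable {K : ℕ}

/-- the tree function -/
noncomputable def hh (K : ℕ) (mt : ℕ → ℤ → ℤ → ℂ) (r : ℕ) (T : Finset Tile) (c : Tile → ℂ)
    (x : X K) : ℂ := ∑ s ∈ T, s.len * c s * pk mt r s x

/-- action of a multiplier on the tree function -/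
theorem mul_hh (mt : ℕ → ℤ → ℤ → ℂ) (r : ℕ) (T : Finset Tile) (c : Tile → ℂ) (φ : ℤ → ℂ)
    (x : X K) : mul φ (hh K mt r T c) x = ∑ s ∈ T, s.len * c s *
      ∑ ξ ∈ win K, φ ξ * mt s.k s.l ξ * ch (-ξ) (pt K s.k s.j r) * ch ξ x := by
  have e : hh K mt r T c = fun x : X K => ∑ ξ ∈ win K,
      (∑ s ∈ T, s.len * c s * (mt s.k s.l ξ * ch (-ξ) (pt K s.k s.j r))) * ch ξ x := by
    funext x
    unfold hh
    simp_rw [H350.pk_eq, Finset.mul_sum, Finset.sum_mul]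
    rw [Finset.sum_comm]
    refine Finset.sum_congr rfl fun ξ _ => Finset.sum_congr rfl fun s _ => by ring
  rw [e]
  unfold mul
  have h2 : ∀ ξ ∈ win K, fc (fun x : X K => ∑ ξ ∈ win K,
      (∑ s ∈ T, s.len * c s * (mt s.k s.l ξ * ch (-ξ) (pt K s.k s.j r))) * ch ξ x) ξ =
      ∑ s ∈ T, s.len * c s * (mt s.k s.l ξ * ch (-ξ) (pt K s.k s.j r)) :=
    fun ξ hξ => H847.fc_sum _ hξ
  rw [Finset.sum_congr rfl fun ξ hξ => by rw [h2 ξ hξ]]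
  simp_rw [Finset.mul_sum, Finset.sum_mul]
  rw [Finset.sum_comm]
  refine Finset.sum_congr rfl fun s _ => Finset.sum_congr rfl fun ξ _ => by ring

/-- the frequency support of a tile of a one-offset tree with `|m| ≤ 1` -/
theorem supp_off {ξ m l η : ℤ} {k : ℕ} (hm : |m| ≤ 1) (hl : l = ξ / 2 ^ k + m)
    (h1 : (l - 10) * 2 ^ k ≤ η) (h2 : η < (l - 2) * 2 ^ k) :
    ξ - 12 * 2 ^ k ≤ η ∧ η < ξ - 2 ^ k := by
  have hp : (0:ℤ) < 2 ^ k := by positivity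
  have h3 := Int.emod_add_mul_ediv ξ (2 ^ k)
  have h4 := Int.emod_nonneg ξ hp.ne'
  have h5 := Int.emod_lt_of_pos ξ hp
  rw [abs_le] at hm
  set q := ξ / 2 ^ k
  subst hl
  constructor
  · nlinarith
  · nlinarith

/-- frequency of the plateau symbol of scale `κ + 1` -/
def lp (ξ : ℤ) (κ : ℕ) : ℤ := (ξ + 2 ^ κ) / 2 ^ (κ + 1) + 3

theorem lp_bounds (ξ : ℤ) (κ : ℕ) :
    ξ + 5 * 2 ^ κ < lp ξ κ * 2 ^ (κ + 1) ∧ lp ξ κ * 2 ^ (κ + 1) ≤ ξ + 7 * 2 ^ κ := by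
  unfold lp
  have hp : (0:ℤ) < 2 ^ (κ + 1) := by positivity
  have h3 := Int.emod_add_mul_ediv (ξ + 2 ^ κ) (2 ^ (κ + 1))
  have h4 := Int.emod_nonneg (ξ + 2 ^ κ) hp.ne'
  have h5 := Int.emod_lt_of_pos (ξ + 2 ^ κ) hp
  have e : (2:ℤ) ^ (κ + 1) = 2 * 2 ^ κ := by ring
  set q := (ξ + 2 ^ κ) / 2 ^ (κ + 1)
  set ρ := (ξ + 2 ^ κ) % 2 ^ (κ + 1)
  rw [e] at *
  constructor <;> nlinarith

section Off
variable {T : Finset Tile} {kT jT : ℕ} {ξ m : ℤ}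

theorem proj_eq {B : ℝ} {φ : ℕ → ℤ → ℤ → ℂ} (hφ : IsSym B φ)
    (hφ1 : ∀ (k : ℕ) (l η : ℤ), (2 * l - 19) * 2 ^ k ≤ 2 * η → 2 * η ≤ (2 * l - 5) * 2 ^ k →
      φ k l η = 1) {B' : ℝ} {mt : ℕ → ℤ → ℤ → ℂ} (hmt : IsSym B' mt) (r : ℕ)
    (hT : IsOff K T kT jT ξ m) (hm : |m| ≤ 1) {s1 : Tile} (hs1 : s1 ∈ T) (c : Tile → ℂ) (x : X K) :
    mul (φ (s1.k + 1) (lp ξ s1.k)) (hh K mt r T c) x =
      ∑ s ∈ T.filter (fun s => s.k ≤ s1.k), s.len * c s * pk mt r s x := by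
  rw [mul_hh, Finset.sum_filter]
  refine Finset.sum_congr rfl fun s hs => ?_
  have hlp := lp_bounds ξ s1.k
  have e : (2:ℤ) ^ (s1.k + 1) = 2 * 2 ^ s1.k := by ring
  have hp1 : (0:ℤ) < 2 ^ s1.k := by positivity
  have hp : (0:ℤ) < 2 ^ s.k := by positivity
  split_ifs with hk
  · rw [H350.pk_eq]
    congr 1
    refine Finset.sum_congr rfl fun η _ => ?_
    by_cases hη : η < (s.l - 10) * 2 ^ s.k ∨ (s.l - 2) * 2 ^ s.k ≤ η
    · rw [(hmt s.k s.l).1 η hη]; ring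
    · push Not at hη
      obtain ⟨h1, h2⟩ := supp_off hm (hT.off s hs) hη.1 hη.2
      have h3 : (2:ℤ) ^ s.k ≤ 2 ^ s1.k := pow_le_pow_right₀ (by norm_num) hk
      rw [e] at hlp
      rw [hφ1 (s1.k + 1) (lp ξ s1.k) η ?_ ?_, one_mul]
      · rw [sub_mul, mul_assoc 2, e]
        linarith [hlp.1, hlp.2]
      · rw [sub_mul, mul_assoc 2, e]
        linarith [hlp.1, hlp.2]
  · have hk5 : s1.k + 5 ≤ s.k := by
      have := (hT.good.1 s hs s1 hs1).1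
      omega
    rw [Finset.sum_eq_zero, mul_zero]
    intro η _
    by_cases hη : η < (s.l - 10) * 2 ^ s.k ∨ (s.l - 2) * 2 ^ s.k ≤ η
    · rw [(hmt s.k s.l).1 η hη]; ring
    · push Not at hη
      obtain ⟨h1, h2⟩ := supp_off hm (hT.off s hs) hη.1 hη.2
      have h3 : (32:ℤ) * 2 ^ s1.k ≤ 2 ^ s.k := by
        have : (2:ℤ) ^ (s1.k + 5) ≤ 2 ^ s.k := pow_le_pow_right₀ (by norm_num) hk5
        rw [pow_add] at this
        linarith
      rw [(hφ (s1.k + 1) (lp ξ s1.k)).1 η (Or.inl ?_)]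
      · ring
      · rw [e] at hlp
        rw [sub_mul, e]
        linarith [hlp.1, hlp.2]

theorem window_ok (hT : IsOff K T kT jT ξ m) (hm : |m| ≤ 1) {s1 : Tile} (hs1 : s1 ∈ T) :
    s1.k + 1 ≤ K ∧ 0 ≤ (lp ξ s1.k - 10) * 2 ^ (s1.k + 1) ∧
      (lp ξ s1.k - 2) * 2 ^ (s1.k + 1) ≤ 2 ^ K := by
  have hlp := lp_bounds ξ s1.k
  have e : (2:ℤ) ^ (s1.k + 1) = 2 * 2 ^ s1.k := by ring
  have hp1 : (0:ℤ) < 2 ^ s1.k := by positivity
  obtain ⟨h1, h2, h3, h4⟩ := hT.ok hs1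
  have h5 := hT.off s1 hs1
  have h6 : (64:ℤ) * 2 ^ s1.k ≤ 2 ^ K := by
    have : (2:ℤ) ^ (s1.k + 6) ≤ 2 ^ K := pow_le_pow_right₀ (by norm_num) h1
    rw [pow_add] at this
    linarith
  have h7 := Int.emod_add_mul_ediv ξ (2 ^ s1.k)
  have h8 := Int.emod_nonneg ξ hp1.ne'
  have h9 := Int.emod_lt_of_pos ξ hp1
  rw [abs_le] at hm
  set q := ξ / 2 ^ s1.k
  rw [h5] at h3 h4
  rw [e] at hlp
  have h10 : m * 2 ^ s1.k ≤ 2 ^ s1.k := by nlinarith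
  have h11 : -(2 ^ s1.k) ≤ m * 2 ^ s1.k := by nlinarith
  rw [add_mul, add_mul] at h4
  rw [add_mul] at h3
  refine ⟨by omega, ?_, ?_⟩
  · rw [sub_mul, e]
    linarith [hlp.1, hlp.2]
  · rw [sub_mul, e]
    linarith [hlp.1, hlp.2]

/-- smooth projections are dominated by the maximal function -/
theorem proj_le {B : ℝ} {φ : ℕ → ℤ → ℤ → ℂ} (hφ : IsSym B φ) : ∃ C : ℝ, 0 ≤ C ∧
    ∀ (K : ℕ) (T : Finset Tile) (kT jT : ℕ) (ξ m : ℤ), IsOff K T kT jT ξ m → |m| ≤ 1 →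
    ∀ s1 ∈ T, ∀ (f : X K → ℂ) (x y : X K), nrm (x - y) ≤ s1.len →
      ‖mul (φ (s1.k + 1) (lp ξ s1.k)) f x‖ ≤ C * MX (fun z => ‖f z‖) y := by
  obtain ⟨C, hC⟩ := H847.ker1 B
  refine ⟨|C| * (8 * (1 + 2) ^ 2), by positivity, ?_⟩
  intro K T kT jT ξ m hT hm s1 hs1 f x y hxy
  obtain ⟨hw1, hw2, hw3⟩ := window_ok hT hm hs1
  set k := s1.k + 1 with hk
  have hp := two_pow_pos k
  have hx : nrm (y - x) ≤ 2 * ((2:ℝ) ^ k)⁻¹ := by
    rw [nrm_sub_comm, hk, pow_succ, mul_inv]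
    unfold Tile.len at hxy
    linarith
  have h3 := H69.hl3 (n := 20) (by norm_num) hw1 (fun z => ‖f z‖) (c := x) (x := y)
    (B := 2) (by norm_num) hx
  refine (H847.norm_mul_le _ f x).trans ?_
  calc ave (fun z => ‖f z‖ * ‖ker (φ k (lp ξ s1.k)) (x - z)‖)
      ≤ ave (fun z => |C| * (2 ^ k * (|‖f z‖| * (1 + 2 ^ k * nrm (z - x))⁻¹ ^ 20))) := by
        refine ave_mono fun z => ?_
        have h4 := hC φ hφ K k (lp ξ s1.k) hw1 hw2 hw3 (x - z)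
        rw [nrm_sub_comm x z] at h4
        have h5 : 0 ≤ (1 + 2 ^ k * nrm (z - x))⁻¹ ^ 20 := by
          have := nrm_nonneg (z - x)
          positivity
        rw [abs_of_nonneg (norm_nonneg (f z))]
        calc ‖f z‖ * ‖ker (φ k (lp ξ s1.k)) (x - z)‖
            ≤ ‖f z‖ * (C * 2 ^ k * (1 + 2 ^ k * nrm (z - x))⁻¹ ^ 20) :=
              mul_le_mul_of_nonneg_left h4 (norm_nonneg _)
          _ ≤ ‖f z‖ * (|C| * 2 ^ k * (1 + 2 ^ k * nrm (z - x))⁻¹ ^ 20) := by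
              refine mul_le_mul_of_nonneg_left ?_ (norm_nonneg _)
              refine mul_le_mul_of_nonneg_right ?_ h5
              exact mul_le_mul_of_nonneg_right (le_abs_self C) hp.le
          _ = _ := by ring
    _ = |C| * (2 ^ k * ave (fun z => |‖f z‖| * (1 + 2 ^ k * nrm (z - x))⁻¹ ^ 20)) := by
        rw [H69.ave_mul_left, H69.ave_mul_left]
    _ ≤ |C| * (8 * (1 + 2) ^ 2 * MX (fun z => ‖f z‖) y) :=
        mul_le_mul_of_nonneg_left h3 (abs_nonneg _)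
    _ = _ := by ring

/-- the scales seen by `x` form an interval of scales of `T` -/
theorem interval_scales (hT : IsOff K T kT jT ξ m) {n : ℤ} {s t u : Tile} (hs : s ∈ T)
    (ht : t ∈ T) (hu : u ∈ T) (h1 : n / 2 ^ s.k = s.l) (h2 : n / 2 ^ t.k = t.l)
    (hsu : s.k ≤ u.k) (hut : u.k ≤ t.k) : n / 2 ^ u.k = u.l := by
  have e1 := hT.off s hs
  have e2 := hT.off t ht
  have e3 := hT.off u hu
  have h3 := floor_cases n ξ hsu
  have h4 := floor_cases n ξ hut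
  omega

end Off

end Vale.Agent.P091.CH.H539
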