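import Vale.Agent.P091.CH.H539.Near
import Vale.Agent.P091.CH.Light

/-!
# TREE LEMMA  (helper539)

`tree_gen`: arbitrary coefficients, two arbitrary `x`-dependent scale bounds;
`tr : P_TR`, `trt : P_TRT`.
-/

open Finset

namespace Vale.Agent.P091.CH.H539

open H69 (nrm_nonneg nrm_tri nrm_sub_comm nrm_le_half ave_mono ave_nonneg)

variable {K : ℕ}

/-- `N`-side coefficient with two truncations -/
noncomputable def bcoI (m : ℕ → ℤ → ℤ → ℂ) (r : ℕ) (g : X K → ℂ) (N : X K → ℤ)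
    (κ1 κ2 : X K → ℕ) (s : Tile) : ℂ :=
  aveC (fun x => g x * pk m r s x *
    (if N x / 2 ^ s.k = s.l ∧ κ1 x ≤ s.k ∧ s.k < κ2 x then 1 else 0))

theorem enLe_mono_coeff {a c : Tile → ℂ} {T : Finset Tile} {e : ℝ} (h : EnLe a T e)
    (hc : ∀ s, ‖c s‖ ≤ ‖a s‖) : EnLe c T e := by
  intro T' hT' kT jT ξ hL
  refine le_trans ?_ (h T' hT' kT jT ξ hL)
  refine Finset.sum_le_sum fun s _ => ?_
  exact mul_le_mul_of_nonneg_left (pow_le_pow_left₀ (norm_nonneg _) (hc s) 2) (len_pos s).le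

theorem enLe_subset {a : Tile → ℂ} {T T' : Finset Tile} {e : ℝ} (h : EnLe a T e) (hT : T' ⊆ T) :
    EnLe a T' e := fun T'' h'' kT jT ξ hL => h T'' (h''.trans hT) kT jT ξ hL

theorem exists_phase (z : ℂ) : ∃ θ : ℂ, ‖θ‖ ≤ 1 ∧ θ * z = ‖z‖ := by
  by_cases hz : z = 0
  · exact ⟨0, by simp, by simp [hz]⟩
  · refine ⟨(starRingEnd ℂ) z / ‖z‖, ?_, ?_⟩
    · rw [norm_div, RCLike.norm_conj, Complex.norm_real, norm_norm, div_self (norm_ne_zero_iff.2 hz)]
    · have hz' : (‖z‖ : ℂ) ≠ 0 := by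
        rw [Ne, Complex.ofReal_eq_zero]
        exact norm_ne_zero_iff.2 hz
      rw [div_mul_eq_mul_div, mul_comm ((starRingEnd ℂ) z), Complex.mul_conj, Complex.normSq_eq_norm_sq,
        div_eq_iff hz']
      push_cast
      ring

theorem norm_aveC_le (g : X K → ℂ) : ‖aveC g‖ ≤ ave (fun x => ‖g x‖) := H350.norm_aveC_le g

/-- the tree lemma for one offset -/
theorem tree_off (B : ℝ) : ∃ C : ℝ, 0 ≤ C ∧ ∀ mt, IsSym B mt → ∀ (K r : ℕ), r < 8 →
    ∀ (a : Tile → ℂ) (g : X K → ℂ) (N : X K → ℤ) (κ1 κ2 : X K → ℕ) (E : Finset (X K))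
      (T : Finset Tile) (kT jT : ℕ) (ξ m : ℤ) (e μ : ℝ), 0 < e → 0 ≤ μ →
      (∀ x, ‖g x‖ ≤ if x ∈ E then 1 else 0) → IsOff K T kT jT ξ m → EnLe a T e → MsLe E N T μ →
      ∑ s ∈ T, s.len * ‖a s‖ * ‖bcoI mt r g N κ1 κ2 s‖ ≤ C * e * μ * ((2:ℝ) ^ kT)⁻¹ := by
  classical
  obtain ⟨C1, hC1, hpk⟩ := pk_le B
  obtain ⟨CA, hCA, hTA⟩ := H862.pTA
  obtain ⟨CG, hCG, hTG⟩ := H324.tg
  obtain ⟨CF, hCF, hFF⟩ := FF_le B
  obtain ⟨CW, hCW, hWW⟩ := ave_WW B
  refine ⟨C1 * CA + CG * (CF * CW), by positivity, ?_⟩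
  intro mt hmt K r hr a g N κ1 κ2 E T kT jT ξ m e μ he hμ hg hT hE hM
  have hp : (0:ℝ) < ((2:ℝ) ^ kT)⁻¹ := by positivity
  rcases T.eq_empty_or_nonempty with rfl | h
  · rw [sum_empty]; positivity
  have hkT : kT ≤ K := by
    obtain ⟨s, hs⟩ := h
    have := (hT.top s hs).1
    have := (H350.Ok_bounds (hT.ok hs)).2.1
    omega
  set A : Tile → ℂ := fun s => aveC (fun x => g x * pk mt r s x *
    (if (N x / 2 ^ s.k = s.l ∧ κ1 x ≤ s.k ∧ s.k < κ2 x) ∧ s.len < 4 * rho T h x then 1 else 0))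
    with hA
  set D : Tile → ℂ := fun s => aveC (fun x => g x * pk mt r s x *
    (if 4 * rho T h x ≤ s.len ∧ N x / 2 ^ s.k = s.l ∧ κ1 x ≤ s.k ∧ s.k < κ2 x then 1 else 0))
    with hD
  have hsplit : ∀ s, bcoI mt r g N κ1 κ2 s = A s + D s := by
    intro s
    simp only [bcoI, hA, hD, aveC]
    rw [← add_div, ← Finset.sum_add_distrib]
    congr 1
    refine Finset.sum_congr rfl fun x _ => ?_
    rw [← mul_add]
    congr 1
    by_cases h1 : N x / 2 ^ s.k = s.l ∧ κ1 x ≤ s.k ∧ s.k < κ2 x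
    · by_cases h2 : s.len < 4 * rho T h x
      · rw [if_pos h1, if_pos ⟨h1, h2⟩, if_neg (fun h3 => absurd h3.1 (not_le.2 h2)), add_zero]
      · rw [if_pos h1, if_neg (fun h3 => h2 h3.2), if_pos ⟨not_lt.1 h2, h1⟩, zero_add]
    · rw [if_neg h1, if_neg (fun h3 => h1 h3.1), if_neg (fun h3 => h1 h3.2), add_zero]
  -- the small tiles
  have hAle : ∀ s ∈ T, s.len * ‖A s‖ ≤ C1 * ave (fun x : X K =>
      if x ∈ E ∧ N x / 2 ^ s.k = s.l ∧ s.len < 4 * rho T h x then iw s x ^ 20 else 0) := by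
    intro s hs
    calc s.len * ‖A s‖ ≤ s.len * ave (fun x => ‖g x * pk mt r s x *
          (if (N x / 2 ^ s.k = s.l ∧ κ1 x ≤ s.k ∧ s.k < κ2 x) ∧ s.len < 4 * rho T h x
            then (1:ℂ) else 0)‖) :=
          mul_le_mul_of_nonneg_left (norm_aveC_le _) (len_pos s).le
      _ = ave (fun x => s.len * ‖g x * pk mt r s x *
          (if (N x / 2 ^ s.k = s.l ∧ κ1 x ≤ s.k ∧ s.k < κ2 x) ∧ s.len < 4 * rho T h x
            then (1:ℂ) else 0)‖) := by rw [H69.ave_mul_left]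
      _ ≤ ave (fun x => C1 * (if x ∈ E ∧ N x / 2 ^ s.k = s.l ∧ s.len < 4 * rho T h x
            then iw s x ^ 20 else 0)) := by
          refine ave_mono fun x => ?_
          have h1 := hpk mt hmt K r hr s (hT.ok hs) x
          have h2 := hg x
          have h3 : 0 ≤ C1 * iw s x ^ 20 := by
            have := iw_pos s x
            positivity
          rw [norm_mul, norm_mul]
          by_cases h4 : (N x / 2 ^ s.k = s.l ∧ κ1 x ≤ s.k ∧ s.k < κ2 x) ∧ s.len < 4 * rho T h x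
          · by_cases h5 : x ∈ E
            · rw [if_pos h4, if_pos ⟨h5, h4.1.1, h4.2⟩, norm_one, mul_one]
              rw [if_pos h5] at h2
              calc s.len * (‖g x‖ * ‖pk mt r s x‖) = ‖g x‖ * (s.len * ‖pk mt r s x‖) := by ring
                _ ≤ 1 * (s.len * ‖pk mt r s x‖) := mul_le_mul_of_nonneg_right h2
                    (mul_nonneg (len_pos s).le (norm_nonneg _))
                _ = s.len * ‖pk mt r s x‖ := one_mul _
                _ ≤ _ := h1
            · rw [if_neg h5] at h2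
              have h6 : ‖g x‖ = 0 := le_antisymm h2 (norm_nonneg _)
              have h8 : ¬ (x ∈ E ∧ N x / 2 ^ s.k = s.l ∧ s.len < 4 * rho T h x) :=
                fun h7 => h5 h7.1
              rw [h6, if_neg h8, zero_mul, zero_mul, mul_zero, mul_zero]
          · rw [if_neg h4, norm_zero, mul_zero, mul_zero]
            split_ifs
            · exact h3
            · simp
      _ = _ := by rw [H69.ave_mul_left]
  have hsmall : ∑ s ∈ T, s.len * ‖a s‖ * ‖A s‖ ≤ e * (C1 * (CA * μ * ((2:ℝ) ^ kT)⁻¹)) := by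
    calc ∑ s ∈ T, s.len * ‖a s‖ * ‖A s‖ ≤ ∑ s ∈ T, e * (C1 * ave (fun x : X K =>
        if x ∈ E ∧ N x / 2 ^ s.k = s.l ∧ s.len < 4 * rho T h x then iw s x ^ 20 else 0)) := by
          refine Finset.sum_le_sum fun s hs => ?_
          calc s.len * ‖a s‖ * ‖A s‖ = ‖a s‖ * (s.len * ‖A s‖) := by ring
            _ ≤ _ := mul_le_mul (single_le he.le hE hs) (hAle s hs)
                (mul_nonneg (len_pos s).le (norm_nonneg _)) he.le
      _ = e * (C1 * ∑ s ∈ T, ave (fun x : X K =>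
        if x ∈ E ∧ N x / 2 ^ s.k = s.l ∧ s.len < 4 * rho T h x then iw s x ^ 20 else 0)) := by
          rw [← Finset.mul_sum, ← Finset.mul_sum]
      _ ≤ _ := by
          refine mul_le_mul_of_nonneg_left (mul_le_mul_of_nonneg_left ?_ hC1) he.le
          exact hTA K N E T h kT jT ξ m μ hμ hT hM
  -- the large tiles
  have hph : ∀ s, ∃ θ : ℂ, ‖θ‖ ≤ 1 ∧ θ * (a s * D s) = ‖a s * D s‖ := fun s => exists_phase _
  choose θ hθ1 hθ2 using hph
  set c : Tile → ℂ := fun s => θ s * a s with hc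
  have hca : ∀ s, ‖c s‖ ≤ ‖a s‖ := by
    intro s
    rw [hc]
    simp only [norm_mul]
    exact mul_le_of_le_one_left (norm_nonneg _) (hθ1 s)
  have hEc : EnLe c T e := enLe_mono_coeff hE hca
  have hce : ∀ s ∈ T, ‖c s‖ ≤ e := fun s hs => single_le he.le hEc hs
  have hlargeC : ((∑ s ∈ T, s.len * ‖a s‖ * ‖D s‖ : ℝ) : ℂ) =
      aveC (fun x => g x * FF K mt r N κ1 κ2 T h c x) := by
    have e1 : ∀ s ∈ T, ((s.len * ‖a s‖ * ‖D s‖ : ℝ) : ℂ) = s.len * c s * D s := by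
      intro s _
      have := hθ2 s
      rw [norm_mul] at this
      push_cast at this ⊢
      rw [mul_assoc, ← this, hc]
      ring
    rw [Complex.ofReal_sum, Finset.sum_congr rfl e1]
    simp only [hD, aveC]
    rw [Finset.sum_congr rfl fun s _ => by rw [← mul_div_assoc, Finset.mul_sum]]
    rw [← Finset.sum_div, Finset.sum_comm]
    congr 1
    refine Finset.sum_congr rfl fun x _ => ?_
    unfold FF big
    rw [Finset.sum_filter, Finset.mul_sum]
    refine Finset.sum_congr rfl fun s _ => ?_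
    split_ifs
    · ring
    · ring
  have hlarge : ∑ s ∈ T, s.len * ‖a s‖ * ‖D s‖ ≤ CG * μ * (CF * CW * e * ((2:ℝ) ^ kT)⁻¹) := by
    have h0 : 0 ≤ ∑ s ∈ T, s.len * ‖a s‖ * ‖D s‖ := Finset.sum_nonneg fun s _ =>
      mul_nonneg (mul_nonneg (len_pos s).le (norm_nonneg _)) (norm_nonneg _)
    calc ∑ s ∈ T, s.len * ‖a s‖ * ‖D s‖ = ‖((∑ s ∈ T, s.len * ‖a s‖ * ‖D s‖ : ℝ) : ℂ)‖ := by
          rw [Complex.norm_real, Real.norm_of_nonneg h0]
      _ = ‖aveC (fun x => g x * FF K mt r N κ1 κ2 T h c x)‖ := by rw [hlargeC]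
      _ ≤ ave (fun x => ‖g x * FF K mt r N κ1 κ2 T h c x‖) := norm_aveC_le _
      _ ≤ ave (fun x => if x ∈ E ∧ Sees N T h x then ‖FF K mt r N κ1 κ2 T h c x‖ else 0) := by
          refine ave_mono fun x => ?_
          rw [norm_mul]
          have h2 := hg x
          by_cases h5 : x ∈ E
          · rw [if_pos h5] at h2
            by_cases h6 : Sees N T h x
            · rw [if_pos ⟨h5, h6⟩]
              exact mul_le_of_le_one_left (norm_nonneg _) h2
            · rw [if_neg (fun h7 => h6 h7.2)]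
              have h8 : FF K mt r N κ1 κ2 T h c x = 0 := by
                unfold FF
                rw [Finset.sum_eq_zero]
                intro s hs
                exfalso
                apply h6
                unfold big at hs
                rw [mem_filter] at hs
                exact ⟨s, hs.1, hs.2.1, hs.2.2.1⟩
              rw [h8, norm_zero, mul_zero]
          · rw [if_neg h5] at h2
            have h6 : ‖g x‖ = 0 := le_antisymm h2 (norm_nonneg _)
            rw [h6, zero_mul, if_neg (fun h7 => h5 h7.1)]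
      _ ≤ CG * μ * ave (WW K CF e kT jT (fun z => if |m| ≤ 1 then hh K mt r T c z else 0)) := by
          refine hTG K N E T h kT jT ξ m μ hμ hT hM _ _ ?_ ?_
          · intro x
            unfold WW
            refine mul_nonneg hCF (add_nonneg ?_ ?_)
            · have := iR_pos kT jT x
              positivity
            · by_cases h6 : 2 ^ kT * nrm (x - pt K kT jT 0) ≤ 6
              · rw [if_pos h6]; exact H69.MX_nonneg _ _
              · rw [if_neg h6]
          · intro x _ y hxy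
            exact hFF mt hmt K r hr N κ1 κ2 T h kT jT ξ m c e he.le hT hce x y hxy
      _ ≤ _ := by
          refine mul_le_mul_of_nonneg_left ?_ (by positivity)
          exact hWW mt hmt K r hr T kT jT ξ m c e CF he hCF hkT hT hEc
  calc ∑ s ∈ T, s.len * ‖a s‖ * ‖bcoI mt r g N κ1 κ2 s‖
      ≤ ∑ s ∈ T, (s.len * ‖a s‖ * ‖A s‖ + s.len * ‖a s‖ * ‖D s‖) := by
        refine Finset.sum_le_sum fun s _ => ?_
        rw [hsplit s, ← mul_add]
        exact mul_le_mul_of_nonneg_left (norm_add_le _ _)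
          (mul_nonneg (len_pos s).le (norm_nonneg _))
    _ = ∑ s ∈ T, s.len * ‖a s‖ * ‖A s‖ + ∑ s ∈ T, s.len * ‖a s‖ * ‖D s‖ :=
        Finset.sum_add_distrib
    _ ≤ e * (C1 * (CA * μ * ((2:ℝ) ^ kT)⁻¹)) + CG * μ * (CF * CW * e * ((2:ℝ) ^ kT)⁻¹) :=
        add_le_add hsmall hlarge
    _ = _ := by ring

/-- **TREE LEMMA**, arbitrary coefficients, two arbitrary `x`-dependent scale bounds -/
theorem tree_gen (B : ℝ) : ∃ C : ℝ, 0 ≤ C ∧ ∀ mt, IsSym B mt → ∀ (K r : ℕ), r < 8 →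
    ∀ (a : Tile → ℂ) (g : X K → ℂ) (N : X K → ℤ) (κ1 κ2 : X K → ℕ) (E : Finset (X K))
      (T : Finset Tile) (kT jT : ℕ) (ξ : ℤ) (e μ : ℝ), 0 ≤ e → 0 ≤ μ →
      (∀ x, ‖g x‖ ≤ if x ∈ E then 1 else 0) → Good K T → IsTree T kT jT ξ → EnLe a T e →
      MsLe E N T μ →
      ∑ s ∈ T, s.len * ‖a s‖ * ‖bcoI mt r g N κ1 κ2 s‖ ≤ C * e * μ * ((2:ℝ) ^ kT)⁻¹ := by
  classical
  obtain ⟨C, hC, hoff⟩ := tree_off B
  refine ⟨23 * C, by positivity, ?_⟩
  intro mt hmt K r hr a g N κ1 κ2 E T kT jT ξ e μ he hμ hg hG hT hE hM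
  rcases he.eq_or_lt with rfl | he'
  · have h0 : ∑ s ∈ T, s.len * ‖a s‖ * ‖bcoI mt r g N κ1 κ2 s‖ = 0 := by
      refine Finset.sum_eq_zero fun s hs => ?_
      have h1 := single_le le_rfl hE hs
      have h2 : ‖a s‖ = 0 := le_antisymm h1 (norm_nonneg _)
      rw [h2, mul_zero, zero_mul]
    rw [h0]
    simp
  have hmaps : ∀ s ∈ T, s.l - ξ / 2 ^ s.k ∈ Finset.Icc (-11 : ℤ) 11 := by
    intro s hs
    have := (hT s hs).2.2
    rw [abs_le] at this
    exact Finset.mem_Icc.2 this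
  rw [← Finset.sum_fiberwise_of_maps_to hmaps]
  have hone : ∀ m ∈ Finset.Icc (-11 : ℤ) 11,
      ∑ s ∈ T.filter (fun s => s.l - ξ / 2 ^ s.k = m),
        s.len * ‖a s‖ * ‖bcoI mt r g N κ1 κ2 s‖ ≤ C * e * μ * ((2:ℝ) ^ kT)⁻¹ := by
    intro m hm
    have hsub : T.filter (fun s => s.l - ξ / 2 ^ s.k = m) ⊆ T := filter_subset _ _
    refine hoff mt hmt K r hr a g N κ1 κ2 E _ kT jT ξ m e μ he' hμ hg ?_ (enLe_subset hE hsub)
      (fun s hs => hM s (hsub hs))
    refine ⟨⟨fun s hs t ht => hG.1 s (hsub hs) t (hsub ht), fun s hs => hG.2 s (hsub hs)⟩, ?_, ?_, ?_⟩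
    · rw [Finset.mem_Icc] at hm
      exact abs_le.2 hm
    · intro s hs
      exact ⟨(hT s (hsub hs)).1, (hT s (hsub hs)).2.1⟩
    · intro s hs
      rw [mem_filter] at hs
      omega
  calc _ ≤ ∑ _m ∈ Finset.Icc (-11 : ℤ) 11, C * e * μ * ((2:ℝ) ^ kT)⁻¹ := Finset.sum_le_sum hone
    _ = _ := by
        have hc : (Finset.Icc (-11 : ℤ) 11).card = 23 := rfl
        rw [sum_const, hc, nsmul_eq_mul]
        push_cast
        ring

/-- TREE -/
theorem tr : P_TR := by
  intro B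
  obtain ⟨C, -, hC⟩ := tree_gen B
  refine ⟨C, fun m mt _ hmt K r hr f g N E T kT jT ξ e μ he hμ hg hG hT hE hM => ?_⟩
  have h := hC mt hmt K r hr (co m r f) g N (fun _ => 0) (fun _ => K) E T kT jT ξ e μ he hμ hg hG
    hT hE hM
  refine le_trans (le_of_eq ?_) h
  refine Finset.sum_congr rfl fun s hs => ?_
  congr 2
  unfold bco bcoI
  congr 1
  funext x
  congr 1
  have hk : s.k < K := by
    have := (hG.2 s hs).1
    omega
  simp [hk]

/-- TREE with truncation -/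
theorem trt : P_TRT := by
  intro B
  obtain ⟨C, -, hC⟩ := tree_gen B
  refine ⟨C, fun m mt _ hmt K r hr f g N κ E T kT jT ξ e μ he hμ hg hG hT hE hM => ?_⟩
  have h := hC mt hmt K r hr (co m r f) g N (fun _ => 0) κ E T kT jT ξ e μ he hμ hg hG
    hT hE hM
  refine le_trans (le_of_eq ?_) h
  refine Finset.sum_congr rfl fun s _ => ?_
  congr 2
  unfold bcoT bcoI
  congr 1
  funext x
  congr 1
  simp

end Vale.Agent.P091.CH.H539
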